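import Vale.Agent.Lib.P190.Defs

/-!
# Small Cohen-Macaulay modules: unmixedness and the depth drop lemma

Helper file for problem P190 (the small Cohen-Macaulay module conjecture).
-/

namespace Vale.Agent.Lib.P190

open RingTheory.Sequence IsLocalRing Pointwise CategoryTheory Abelian

universe u

section Unmixed

variable {R : Type*} [CommRing R]

/-- If `P < Q` are ideals with `P` prime then `dim R/Q + 1 ≤ dim R/P`. -/
lemma ringKrullDim_quotient_succ_le_of_lt {P Q : Ideal R} [P.IsPrime] (hPQ : P < Q) :
    ringKrullDim (R ⧸ Q) + 1 ≤ ringKrullDim (R ⧸ P) := by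
  obtain ⟨a, haQ, haP⟩ := Set.exists_of_ssubset hPQ
  refine ringKrullDim_succ_le_of_surjective (Ideal.Quotient.factor hPQ.le)
    (Ideal.Quotient.factor_surjective hPQ.le) (r := Ideal.Quotient.mk P a) ?_ ?_
  · rw [mem_nonZeroDivisors_iff_ne_zero]
    intro h
    exact haP (Ideal.Quotient.eq_zero_iff_mem.mp h)
  · simpa using Ideal.Quotient.eq_zero_iff_mem.mpr haQ

variable [IsNoetherianRing R] [IsLocalRing R]

/-- Key step: if `a ∈ 𝔪` is `M`-regular and `P` is an associated prime of `M`, then some
associated prime `Q` of `M / a M` strictly contains `P`. -/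
lemma exists_associatedPrime_quotSMulTop_gt {M : Type*} [AddCommGroup M] [Module R M]
    [Module.Finite R M] {a : R} (ha : a ∈ maximalIdeal R) (hreg : IsSMulRegular M a)
    {P : Ideal R} (hP : P ∈ associatedPrimes R M) :
    ∃ Q ∈ associatedPrimes R (QuotSMulTop a M), P < Q := by
  obtain ⟨hPprime, x, hx⟩ := (isAssociatedPrime_iff).mp hP
  have hxP : ∀ r, r ∈ P ↔ r • x = 0 := by
    intro r
    rw [hx, Submodule.mem_colon_singleton, Submodule.mem_bot]
  have hx0 : x ≠ 0 := by
    rintro rfl
    apply hPprime.ne_top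
    rw [Ideal.eq_top_iff_one, hxP]
    simp
  let N : Submodule R M :=
    { carrier := {m | ∀ p ∈ P, p • m = 0}
      add_mem' := by
        intro m1 m2 h1 h2 p hp
        rw [smul_add, h1 p hp, h2 p hp, add_zero]
      zero_mem' := by
        intro p _
        exact smul_zero p
      smul_mem' := by
        intro c m hm p hp
        rw [smul_comm, hm p hp, smul_zero] }
  have hxN : x ∈ N := fun p hp => (hxP p).mp hp
  have hNoeth : IsNoetherian R M := isNoetherian_of_isNoetherianRing_of_finite R M
  have hNfg : N.FG := IsNoetherian.noetherian N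
  have hex : ∃ y ∈ N, y ∉ (a • (⊤ : Submodule R M)) := by
    by_contra hcon
    push Not at hcon
    have hle : N ≤ (Ideal.span {a}) • N := by
      intro y hy
      have hy' := hcon y hy
      rw [Submodule.mem_smul_pointwise_iff_exists] at hy'
      obtain ⟨m, -, rfl⟩ := hy'
      have hmN : m ∈ N := by
        intro p hp
        apply hreg
        simp only [smul_zero]
        rw [smul_comm]
        exact hy p hp
      rw [Submodule.ideal_span_singleton_smul]
      exact Submodule.smul_mem_pointwise_smul m a N hmN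
    have hbot : N = ⊥ := by
      refine Submodule.eq_bot_of_le_smul_of_le_jacobson_bot (Ideal.span {a}) N hNfg hle ?_
      rw [IsLocalRing.jacobson_eq_maximalIdeal ⊥ bot_ne_top]
      exact (Ideal.span_singleton_le_iff_mem _).mpr ha
    exact hx0 (by simpa [hbot] using hxN)
  obtain ⟨y, hyN, hya⟩ := hex
  have hy0 : (Submodule.Quotient.mk y : QuotSMulTop a M) ≠ 0 := by
    intro h
    exact hya ((Submodule.Quotient.mk_eq_zero _).mp h)
  obtain ⟨Q, hQ, hle⟩ := exists_le_isAssociatedPrime_of_isNoetherianRing R
    (Submodule.Quotient.mk y : QuotSMulTop a M) hy0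
  refine ⟨Q, hQ, lt_of_le_of_ne ?_ ?_⟩
  · intro p hp
    apply hle
    rw [Submodule.mem_colon_singleton, Submodule.mem_bot, ← Submodule.Quotient.mk_smul,
      hyN p hp, Submodule.Quotient.mk_zero]
  · intro hPQ
    have haQ : a ∈ Q := by
      apply hle
      rw [Submodule.mem_colon_singleton, Submodule.mem_bot, ← Submodule.Quotient.mk_smul,
        Submodule.Quotient.mk_eq_zero]
      exact Submodule.smul_mem_pointwise_smul y a ⊤ Submodule.mem_top
    rw [← hPQ, hxP] at haQ
    exact hx0 (hreg (by simpa using haQ))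

/-- Unmixedness: if `M` has a regular sequence of length `n` inside the maximal ideal, then
every associated prime `P` of `M` satisfies `n ≤ dim R/P`. -/
theorem length_le_ringKrullDim_quotient_of_mem_associatedPrimes
    {M : Type*} [AddCommGroup M] [Module R M] [Module.Finite R M]
    {rs : List R} (hmem : ∀ r ∈ rs, r ∈ maximalIdeal R) (hreg : IsRegular M rs)
    {P : Ideal R} (hP : P ∈ associatedPrimes R M) :
    (rs.length : WithBot ℕ∞) ≤ ringKrullDim (R ⧸ P) := by
  induction rs generalizing M P with
  | nil =>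
    have : P.IsPrime := hP.isPrime
    simpa using ringKrullDim_nonneg_of_nontrivial (R := R ⧸ P)
  | cons a rs ih =>
    have hPprime : P.IsPrime := hP.isPrime
    obtain ⟨ha, hrs⟩ := (isRegular_cons_iff M a rs).mp hreg
    obtain ⟨Q, hQ, hPQ⟩ := exists_associatedPrime_quotSMulTop_gt
      (hmem a List.mem_cons_self) ha hP
    have h1 := ih (fun r hr => hmem r (List.mem_cons_of_mem a hr)) hrs hQ
    have h2 := ringKrullDim_quotient_succ_le_of_lt hPQ
    calc ((a :: rs).length : WithBot ℕ∞) = (rs.length : WithBot ℕ∞) + 1 := by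
          simp
      _ ≤ ringKrullDim (R ⧸ Q) + 1 := by gcongr
      _ ≤ ringKrullDim (R ⧸ P) := h2

/-- A parameter (an element `x` with `dim R/xR < dim R`) is a nonzerodivisor on every
small Cohen-Macaulay module. -/
theorem isSMulRegular_of_ringKrullDim_quotient_lt
    {M : Type*} [AddCommGroup M] [Module R M] [Module.Finite R M]
    {rs : List R} (hmem : ∀ r ∈ rs, r ∈ maximalIdeal R) (hreg : IsRegular M rs)
    (hlen : (rs.length : WithBot ℕ∞) = ringKrullDim R)
    {x : R} (hx : ringKrullDim (R ⧸ Ideal.span {x}) < ringKrullDim R) :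
    IsSMulRegular M x := by
  by_contra hnot
  have hmemU : x ∈ ⋃ p ∈ associatedPrimes R M, (p : Set R) := by
    rw [biUnion_associatedPrimes_eq_compl_regular R M]
    exact hnot
  simp only [Set.mem_iUnion, SetLike.mem_coe, exists_prop] at hmemU
  obtain ⟨P, hP, hxP⟩ := hmemU
  have h1 := length_le_ringKrullDim_quotient_of_mem_associatedPrimes hmem hreg hP
  have h2 : ringKrullDim (R ⧸ P) ≤ ringKrullDim (R ⧸ Ideal.span {x}) :=
    ringKrullDim_le_of_surjective
      (Ideal.Quotient.factor ((Ideal.span_singleton_le_iff_mem P).mpr hxP))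
      (Ideal.Quotient.factor_surjective _)
  exact absurd (hlen ▸ h1.trans h2) (not_le.mpr hx)

end Unmixed

section DepthDrop

variable {R : Type u} [CommRing R] [IsLocalRing R]

lemma maximalIdeal_smul_top_lt_top (M : Type*) [AddCommGroup M] [Module R M] [Module.Finite R M]
    [Nontrivial M] : maximalIdeal R • (⊤ : Submodule R M) < ⊤ :=
  lt_top_iff_ne_top.mpr
    (Submodule.top_ne_ideal_smul_of_le_jacobson_annihilator (maximalIdeal_le_jacobson _)).symm

lemma nontrivial_quotSMulTop (M : Type*) [AddCommGroup M] [Module R M] [Module.Finite R M]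
    [Nontrivial M] {a : R} (ha : a ∈ maximalIdeal R) : Nontrivial (QuotSMulTop a M) :=
  Submodule.Quotient.nontrivial_iff.mpr
    (Submodule.top_ne_pointwise_smul_of_mem_jacobson_annihilator
      (maximalIdeal_le_jacobson _ ha)).symm

variable [IsNoetherianRing R]

/-- Depth drops by at most one modulo a regular element: if `M` has a regular sequence of
length `n + 1` in the maximal ideal and `a ∈ 𝔪` is `M`-regular, then `M / a M` has a regular
sequence of length `n` in the maximal ideal. (Via the Rees theorem.) -/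
theorem exists_isRegular_quotSMulTop {M : Type u} [AddCommGroup M] [Module R M]
    [Module.Finite R M] {n : ℕ}
    (h : ∃ rs : List R, rs.length = n + 1 ∧ (∀ r ∈ rs, r ∈ maximalIdeal R) ∧ IsRegular M rs)
    {a : R} (ha : a ∈ maximalIdeal R) (hreg : IsSMulRegular M a) :
    ∃ rs : List R, rs.length = n ∧ (∀ r ∈ rs, r ∈ maximalIdeal R) ∧
      IsRegular (QuotSMulTop a M) rs := by
  have hnt : Nontrivial M := by
    obtain ⟨rs, -, -, hr⟩ := h
    exact hr.nontrivial
  have hnt' : Nontrivial (QuotSMulTop a M) := nontrivial_quotSMulTop M ha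
  have tfae1 := ModuleCat.exists_isRegular_tfae (maximalIdeal R) (n + 1) (ModuleCat.of R M)
    (maximalIdeal_smul_top_lt_top M)
  have tfae2 := ModuleCat.exists_isRegular_tfae (maximalIdeal R) n
    (ModuleCat.of R (QuotSMulTop a M)) (maximalIdeal_smul_top_lt_top (QuotSMulTop a M))
  have h1 := (tfae1.out 3 1).mp h
  refine (tfae2.out 1 3).mp ?_
  intro i hi
  have hreg' : IsSMulRegular (ModuleCat.of R M) a := hreg
  have zero1 := AddCommGrpCat.isZero_of_iff_subsingleton.mpr (h1 i (by omega))
  have zero2 := AddCommGrpCat.isZero_of_iff_subsingleton.mpr (h1 (i + 1) (by omega))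
  exact AddCommGrpCat.subsingleton_of_isZero <| ShortComplex.Exact.isZero_of_both_zeros
    ((Ext.covariant_sequence_exact₃' _ hreg'.smulShortComplex_shortExact) i (i + 1) rfl)
    (zero1.eq_zero_of_src _) (zero2.eq_zero_of_tgt _)

end DepthDrop

end Vale.Agent.Lib.P190
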