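import Mathlib

/-!
# Small Cohen-Macaulay modules: definitions

Definitions for problem P190 (the small Cohen-Macaulay module conjecture).
-/

namespace Vale.Agent.Lib.P190

open RingTheory.Sequence IsLocalRing

universe u

/-- `IsSmallCM R M`: the `R`-module `M` is a small (also called maximal) Cohen-Macaulay module
over the local ring `R`, i.e. `M` is finitely generated and there is an `M`-regular sequence of
elements of the maximal ideal whose length equals the Krull dimension of `R`
(so that `depth M = dim R`; regularity of a sequence includes `M / (rs) M ≠ 0`, hence `M ≠ 0`). -/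
def IsSmallCM (R : Type*) [CommRing R] [IsLocalRing R] (M : Type*) [AddCommGroup M]
    [Module R M] : Prop :=
  Module.Finite R M ∧ ∃ rs : List R, (∀ r ∈ rs, r ∈ maximalIdeal R) ∧ IsRegular M rs ∧
    (rs.length : WithBot ℕ∞) = ringKrullDim R

/-- `HasSmallCM R`: the local ring `R` admits a small Cohen-Macaulay module. -/
def HasSmallCM (R : Type u) [CommRing R] [IsLocalRing R] : Prop :=
  ∃ (M : Type u) (_ : AddCommGroup M) (_ : Module R M), IsSmallCM R M

end Vale.Agent.Lib.P190
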