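import Vale.Agent.Lib.P190.Basic

/-!
# Small Cohen-Macaulay modules descend along module-finite extensions
-/

namespace Vale.Agent.Lib.P190

open RingTheory.Sequence IsLocalRing Pointwise

universe u

section Integral

variable {R S : Type*} [CommRing R] [CommRing S] [Algebra R S] [Algebra.IsIntegral R S]

/-- For an integral ring extension, `dim S ≤ dim R`. -/
lemma ringKrullDim_le_of_isIntegral : ringKrullDim S ≤ ringKrullDim R := by
  refine Order.krullDim_le_of_strictMono (PrimeSpectrum.comap (algebraMap R S)) ?_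
  intro P Q hPQ
  exact Ideal.IsIntegral.comap_lt_comap (R := R) hPQ

/-- For an injective integral ring extension, `dim R ≤ dim S`. -/
lemma ringKrullDim_le_of_isIntegral_of_injective (hinj : Function.Injective (algebraMap R S)) :
    ringKrullDim R ≤ ringKrullDim S := by
  refine iSup_le fun l => ?_
  obtain ⟨Q, -, hQ, hQ'⟩ := Ideal.exists_ideal_over_prime_of_isIntegral
    (RelSeries.head l).asIdeal (⊥ : Ideal S) (by
      rw [← RingHom.ker_eq_comap_bot, (RingHom.injective_iff_ker_eq_bot _).mp hinj]
      exact bot_le)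
  have hlo : Q.LiesOver (RelSeries.head l).asIdeal := ⟨hQ'.symm⟩
  obtain ⟨L, hL, -, -⟩ := Ideal.exists_ltSeries_of_hasGoingUp l Q
  rw [← hL]
  exact le_iSup (fun (p : LTSeries (PrimeSpectrum S)) => (p.length : WithBot ℕ∞)) L

lemma ringKrullDim_eq_of_isIntegral_of_injective (hinj : Function.Injective (algebraMap R S)) :
    ringKrullDim R = ringKrullDim S :=
  le_antisymm (ringKrullDim_le_of_isIntegral_of_injective hinj) ringKrullDim_le_of_isIntegral

variable [IsLocalRing R] [IsLocalRing S]

/-- An integral homomorphism of local rings is local. -/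
lemma algebraMap_mem_maximalIdeal_of_isIntegral {r : R} (hr : r ∈ maximalIdeal R) :
    algebraMap R S r ∈ maximalIdeal S := by
  have hmax : ((maximalIdeal S).comap (algebraMap R S)).IsMaximal :=
    Ideal.isMaximal_comap_of_isIntegral_of_isMaximal (maximalIdeal S)
  have heq := IsLocalRing.eq_maximalIdeal hmax
  have : r ∈ (maximalIdeal S).comap (algebraMap R S) := heq ▸ hr
  exact this

end Integral

section Descent

variable {R S : Type u} [CommRing R] [CommRing S] [Algebra R S] [Algebra.IsIntegral R S]
  [IsLocalRing R] [IsLocalRing S] [IsNoetherianRing S]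

/-- If the `S`-module `N` has positive depth, some element of the maximal ideal of `R`
is `N`-regular. -/
lemma exists_mem_maximalIdeal_isSMulRegular {N : Type*} [AddCommGroup N] [Module S N]
    [Module.Finite S N] {r₀ : S} (hr₀ : r₀ ∈ maximalIdeal S) (hreg : IsSMulRegular N r₀) :
    ∃ a ∈ maximalIdeal R, IsSMulRegular N (algebraMap R S a) := by
  by_contra hcon
  push Not at hcon
  have hsub : ((maximalIdeal R : Ideal R) : Set R) ⊆
      ⋃ P ∈ associatedPrimes S N, ((P.comap (algebraMap R S) : Ideal R) : Set R) := by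
    intro a ha
    have h1 : algebraMap R S a ∈ ⋃ p ∈ associatedPrimes S N, (p : Set S) := by
      rw [biUnion_associatedPrimes_eq_compl_regular S N]
      exact hcon a ha
    simp only [Set.mem_iUnion, SetLike.mem_coe, exists_prop] at h1 ⊢
    obtain ⟨P, hP, haP⟩ := h1
    exact ⟨P, hP, haP⟩
  obtain ⟨P, hP, hle⟩ := (Ideal.subset_union_prime_finite (associatedPrimes.finite S N)
    (f := fun P : Ideal S => P.comap (algebraMap R S)) ⊥ ⊥
    (fun P hP _ _ => by
      have : P.IsPrime := hP.isPrime
      exact Ideal.comap_isPrime _ _)).mp hsub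
  have hPprime : P.IsPrime := hP.isPrime
  have hcomap_prime : (P.comap (algebraMap R S)).IsPrime := Ideal.comap_isPrime _ _
  have hcomap : P.comap (algebraMap R S) = maximalIdeal R :=
    le_antisymm (IsLocalRing.le_maximalIdeal hcomap_prime.ne_top) hle
  have hPmax : P.IsMaximal :=
    Ideal.isMaximal_of_isIntegral_of_isMaximal_comap (R := R) P
      (hcomap ▸ IsLocalRing.maximalIdeal.isMaximal R)
  have hPeq : P = maximalIdeal S := IsLocalRing.eq_maximalIdeal hPmax
  have h2 : r₀ ∈ ⋃ p ∈ associatedPrimes S N, (p : Set S) := by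
    simp only [Set.mem_iUnion, SetLike.mem_coe, exists_prop]
    exact ⟨P, hP, hPeq ▸ hr₀⟩
  rw [biUnion_associatedPrimes_eq_compl_regular S N] at h2
  exact h2 hreg

/-- Depth does not drop along an integral local homomorphism: a regular sequence of
length `n` in the maximal ideal of `S` can be replaced by one coming from the maximal ideal
of `R`. -/
theorem exists_isRegular_map_algebraMap (n : ℕ) :
    ∀ (N : Type u) [AddCommGroup N] [Module S N] [Module.Finite S N],
      (∃ rs : List S, rs.length = n ∧ (∀ r ∈ rs, r ∈ maximalIdeal S) ∧ IsRegular N rs) →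
      ∃ rs : List R, rs.length = n ∧ (∀ r ∈ rs, r ∈ maximalIdeal R) ∧
        IsRegular N (rs.map (algebraMap R S)) := by
  induction n with
  | zero =>
    intro N _ _ _ h
    obtain ⟨rs, -, -, hreg⟩ := h
    have : Nontrivial N := hreg.nontrivial
    exact ⟨[], rfl, by simp, by simpa using IsRegular.nil S N⟩
  | succ n ih =>
    intro N _ _ _ h
    obtain ⟨rs, hlen, hmem, hreg⟩ := h
    obtain ⟨r₀, rs₀, rfl⟩ : ∃ r₀ rs₀, rs = r₀ :: rs₀ := by
      cases rs with
      | nil => simp at hlen
      | cons r₀ rs₀ => exact ⟨r₀, rs₀, rfl⟩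
    have hr₀reg : IsSMulRegular N r₀ := ((isRegular_cons_iff N r₀ rs₀).mp hreg).1
    obtain ⟨a, ha, hareg⟩ := exists_mem_maximalIdeal_isSMulRegular (R := R)
      (hmem r₀ List.mem_cons_self) hr₀reg
    have ha' : algebraMap R S a ∈ maximalIdeal S := algebraMap_mem_maximalIdeal_of_isIntegral ha
    obtain ⟨rs', hlen', hmem', hreg'⟩ :=
      exists_isRegular_quotSMulTop ⟨r₀ :: rs₀, hlen, hmem, hreg⟩ ha' hareg
    obtain ⟨rs'', hlen'', hmem'', hreg''⟩ :=
      ih (QuotSMulTop (algebraMap R S a) N) ⟨rs', hlen', hmem', hreg'⟩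
    refine ⟨a :: rs'', by simp [hlen''], ?_, ?_⟩
    · intro r hr
      rcases List.mem_cons.mp hr with rfl | hr
      · exact ha
      · exact hmem'' r hr
    · rw [List.map_cons]
      exact (isRegular_cons_iff N _ _).mpr ⟨hareg, hreg''⟩

end Descent

/-- **Descent along module-finite extensions.** Let `R ⊆ S` be a module-finite extension of
Noetherian local rings. If `S` has a small Cohen-Macaulay module then so does `R`. -/
theorem hasSmallCM_of_finite_of_injective {R S : Type u} [CommRing R] [CommRing S]
    [IsLocalRing R] [IsLocalRing S] [IsNoetherianRing S] [Algebra R S] [Module.Finite R S]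
    (hinj : Function.Injective (algebraMap R S)) (h : HasSmallCM S) : HasSmallCM R := by
  obtain ⟨N, _, _, hfin, rs, hmem, hreg, hlen⟩ := h
  have hint : Algebra.IsIntegral R S := inferInstance
  obtain ⟨rs', hlen', hmem', hreg'⟩ :=
    exists_isRegular_map_algebraMap (R := R) rs.length N ⟨rs, rfl, hmem, hreg⟩
  letI : Module R N := Module.compHom N (algebraMap R S)
  haveI : IsScalarTower R S N := IsScalarTower.of_algebraMap_smul fun _ _ => rfl
  refine ⟨N, inferInstance, inferInstance, Module.Finite.trans S N, rs', hmem', ?_, ?_⟩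
  · refine ((AddEquiv.refl N).isRegular_congr ?_).mp hreg'
    rw [List.forall₂_map_left_iff]
    exact List.forall₂_same.mpr fun r _ x => rfl
  · rw [hlen', hlen]
    exact (ringKrullDim_eq_of_isIntegral_of_injective hinj).symm

end Vale.Agent.Lib.P190
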