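import Vale.Agent.Lib.P190.Basic

/-!
# Small Cohen-Macaulay modules descend to quotients by parameters
-/

namespace Vale.Agent.Lib.P190

open RingTheory.Sequence IsLocalRing Pointwise

universe u

lemma withBot_enat_eq_of_le_of_lt {d : WithBot ℕ∞} {n : ℕ}
    (h1 : ((n + 1 : ℕ) : WithBot ℕ∞) ≤ d + 1) (h2 : d < ((n + 1 : ℕ) : WithBot ℕ∞)) :
    (n : WithBot ℕ∞) = d := by
  induction d using WithBot.recBotCoe with
  | bot => simp at h1
  | coe e =>
    induction e using ENat.recTopCoe with
    | top =>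
      exfalso
      have h3 : ((n + 1 : ℕ) : WithBot ℕ∞) = (((n + 1 : ℕ) : ℕ∞) : WithBot ℕ∞) := rfl
      rw [h3, WithBot.coe_lt_coe] at h2
      exact absurd h2 (by simp)
    | coe k =>
      have h3 : ((n + 1 : ℕ) : WithBot ℕ∞) = (((n + 1 : ℕ) : ℕ∞) : WithBot ℕ∞) := rfl
      have h4 : ((k : ℕ∞) : WithBot ℕ∞) + 1 = (((k + 1 : ℕ) : ℕ∞) : WithBot ℕ∞) := by
        push_cast
        rfl
      rw [h3, WithBot.coe_lt_coe, Nat.cast_lt] at h2
      rw [h3, h4, WithBot.coe_le_coe, Nat.cast_le] at h1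
      have : n = k := by omega
      subst this
      rfl

/-- The quotient map of a local ring sends the maximal ideal into the maximal ideal. -/
lemma mk_mem_maximalIdeal_quotient {R : Type*} [CommRing R] [IsLocalRing R] (I : Ideal R)
    [IsLocalRing (R ⧸ I)] {r : R} (hr : r ∈ maximalIdeal R) :
    Ideal.Quotient.mk I r ∈ maximalIdeal (R ⧸ I) := by
  have hmax : ((maximalIdeal (R ⧸ I)).comap (Ideal.Quotient.mk I)).IsMaximal :=
    Ideal.comap_isMaximal_of_surjective _ Ideal.Quotient.mk_surjective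
  have heq := IsLocalRing.eq_maximalIdeal hmax
  have : r ∈ (maximalIdeal (R ⧸ I)).comap (Ideal.Quotient.mk I) := heq ▸ hr
  exact this

/-- **Descent to quotients by parameters.** If a Noetherian local ring `R` has a small
Cohen-Macaulay module and `x` is a parameter (`dim R/xR < dim R`), then `R/xR` has a small
Cohen-Macaulay module. -/
theorem hasSmallCM_quotient_span_singleton {R : Type u} [CommRing R] [IsNoetherianRing R]
    [IsLocalRing R] (x : R) [IsLocalRing (R ⧸ Ideal.span {x})]
    (hx : ringKrullDim (R ⧸ Ideal.span {x}) < ringKrullDim R) (h : HasSmallCM R) :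
    HasSmallCM (R ⧸ Ideal.span {x}) := by
  obtain ⟨M, _, _, hfin, rs, hmem, hreg, hlen⟩ := h
  have hxm : x ∈ maximalIdeal R := by
    rw [IsLocalRing.mem_maximalIdeal, mem_nonunits_iff]
    intro hu
    have htop : Ideal.span {x} = ⊤ := Ideal.span_singleton_eq_top.mpr hu
    have : Nontrivial (R ⧸ Ideal.span {x}) := inferInstance
    exact (Ideal.Quotient.nontrivial_iff.mp this) htop
  have hxreg : IsSMulRegular M x :=
    isSMulRegular_of_ringKrullDim_quotient_lt hmem hreg hlen hx
  have hnonneg : (0 : WithBot ℕ∞) ≤ ringKrullDim (R ⧸ Ideal.span {x}) :=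
    ringKrullDim_nonneg_of_nontrivial
  obtain ⟨n, hn⟩ : ∃ n, rs.length = n + 1 := by
    apply Nat.exists_eq_succ_of_ne_zero
    intro h0
    rw [h0] at hlen
    rw [← hlen] at hx
    exact absurd hnonneg (not_le.mpr (by simpa using hx))
  obtain ⟨rs', hlen', hmem', hreg'⟩ :=
    exists_isRegular_quotSMulTop ⟨rs, hn, hmem, hreg⟩ hxm hxreg
  have hdim1 : ringKrullDim R ≤ ringKrullDim (R ⧸ Ideal.span {x}) + 1 := by
    have h := ringKrullDim_le_ringKrullDim_quotSMulTop_succ hxm
    have he : Ideal.span {x} = x • (⊤ : Ideal R) := by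
      simp [← Submodule.ideal_span_singleton_smul]
    rwa [← ringKrullDim_eq_of_ringEquiv (Ideal.quotientEquivAlgOfEq R he).toRingEquiv] at h
  refine ⟨QuotSMulTop x M, inferInstance, inferInstance,
    Module.Finite.of_restrictScalars_finite R _ _,
    rs'.map (Ideal.Quotient.mk (Ideal.span {x})), ?_, ?_, ?_⟩
  · intro r hr
    obtain ⟨r', hr', rfl⟩ := List.mem_map.mp hr
    exact mk_mem_maximalIdeal_quotient _ (hmem' r' hr')
  · exact ((isRegular_cons_iff' M x rs').mp
      ((isRegular_cons_iff M x rs').mpr ⟨hxreg, hreg'⟩)).2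
  · rw [List.length_map, hlen']
    apply withBot_enat_eq_of_le_of_lt
    · rw [← hn, hlen]
      exact hdim1
    · rw [← hn, hlen]
      exact hx

end Vale.Agent.Lib.P190
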